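import Vale.Agent.P323.Z9.EE
import Vale.Agent.P323.P11.BB

/-!
# The black boxes `AmalgStmt` and `Step1Stmt` of section 11
-/

namespace Vale.Agent.P323.Z

open CategoryTheory NameTheory

variable {D : Type 1} [Category.{1} D]

/-- the stable equivalence `e y = e' y` on extensions of `B` -/
def seqFeq [NameTheory (CObj D)] {B : CObj D} (y : N B) : SEq B where
  rel e e' := feq (mv e y) (mv e' y)
  refl _ := feq_refl _
  symm h := feq_symm h
  trans h h' := feq_trans h h'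
  mono k e e' h := by
    have := feq_mv k h
    rwa [mv_mv, mv_mv] at this
  loc {W e e'} h := by
    refine feq_loc fun {Y} k => ?_
    obtain ⟨Z, l, hl⟩ := h k
    refine ⟨Z, l, ?_⟩
    rwa [mv_mv, mv_mv]

/-- the stable equivalence `γ e = γ e'` and `e y = e' y` -/
def seqFeqγ [Tw D] [NameTheory (CObj D)] {B : CObj D} (y : N B) {c : D} (γ : c ⟶ B.x) :
    SEq B where
  rel e e' := γ ≫ e.u = γ ≫ e'.u ∧ feq (mv e y) (mv e' y)
  refl _ := ⟨rfl, feq_refl _⟩
  symm h := ⟨h.1.symm, feq_symm h.2⟩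
  trans h h' := ⟨h.1.trans h'.1, feq_trans h.2 h'.2⟩
  mono k e e' h := by
    refine ⟨?_, ((seqFeq y).mono k h.2)⟩
    rw [comp_u, comp_u, ← Category.assoc, ← Category.assoc, h.1]
  loc {W e e'} h := by
    refine ⟨?_, (seqFeq y).loc fun {Y} k => ?_⟩
    · obtain ⟨Z, l, hl⟩ := h (𝟙 W)
      have h1 := hl.1
      rw [Category.id_comp, comp_u, comp_u, ← Category.assoc, ← Category.assoc] at h1
      exact mono' _ h1
    · obtain ⟨Z, l, hl⟩ := h k
      exact ⟨Z, l, hl.2⟩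

theorem amalgStmt [Tw D] [NameTheory (CObj D)] : P11.AmalgStmt D := by
  intro X Y Z u v h
  obtain ⟨i, hu, hv⟩ := mem_two u.u v.u
  obtain ⟨W, a, b, hW, -, ha, hb⟩ := exists_cam i hu hv h
  exact ⟨W, a, b, chom_ext hW.pb.1, hW.pb, hb, ha⟩

theorem step1Stmt [Tw D] [NameTheory (CObj D)] : P11.Step1Stmt D := by
  intro B y X u v h d s t hpb W e₁ e₂ h₁ h₂ he
  exact SEq.step1 (E := seqFeq y) h hpb W e₁ e₂ h₁ h₂ he

end Vale.Agent.P323.Z
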