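import Vale.Agent.P323.Z.Color

/-!
# Section 9, first part: stable equivalences, the filter `EE`, Step 1
-/

namespace Vale.Agent.P323.Z

open CategoryTheory

variable {D : Type 1} [Category.{1} D]

/-! ## A little calculus of partial colourings -/

namespace Col9

theorem le_antisymm {x : D} {p q : Col x} (h : Col.Le p q) (h' : Col.Le q p) : p = q := by
  funext z
  cases hp : p z with
  | some c => exact (h z c hp).symm
  | none =>
    cases hq : q z with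
    | none => rfl
    | some c =>
      have := h' z c hq
      rw [hp] at this
      cases this

theorem le_union_left {x : D} (p q : Col x) : Col.Le p (Col.union p q) := by
  intro z c h
  simp [Col.union, h]

theorem le_union_right {x : D} {p q : Col x} (h : Col.Compat p q) :
    Col.Le q (Col.union p q) := by
  intro z c hq
  cases hp : p z with
  | none => simp [Col.union, hp, hq]
  | some c' =>
    have := h z c' c hp hq
    subst this
    simp [Col.union, hp]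

theorem union_eq_some {x : D} {p q : Col x} {z : Dn x} {c : Bool}
    (h : Col.union p q z = some c) : p z = some c ∨ q z = some c := by
  cases hp : p z with
  | none =>
    right
    simpa [Col.union, hp] using h
  | some c' =>
    left
    simpa [Col.union, hp] using h

theorem union_le {x : D} {p q r : Col x} (h : Col.Le p r) (h' : Col.Le q r) :
    Col.Le (Col.union p q) r := by
  intro z c hz
  rcases union_eq_some hz with h1 | h1
  · exact h z c h1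
  · exact h' z c h1

theorem compat_of_le {x : D} {p q r : Col x} (h : Col.Le p r) (h' : Col.Le q r) :
    Col.Compat p q := by
  intro z c c' hc hc'
  have h1 := h z c hc
  have h2 := h' z c' hc'
  rw [h1] at h2
  exact Option.some.inj h2

theorem sm_of_le {x : D} {p q : Col x} (h : Col.Le p q) (hq : Col.Sm q) : Col.Sm p := by
  unfold Col.Sm at hq ⊢
  refine small_of_injective (β := {z // q z ≠ none})
    (f := fun z => ⟨z.1, ?_⟩) ?_
  · obtain ⟨c, hc⟩ := Option.ne_none_iff_exists'.1 z.2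
    rw [h _ _ hc]
    simp
  · intro z z' hz
    simp only [Subtype.mk.injEq] at hz
    exact Subtype.ext hz

theorem sm_union {x : D} {p q : Col x} (hp : Col.Sm p) (hq : Col.Sm q) :
    Col.Sm (Col.union p q) := by
  classical
  unfold Col.Sm at hp hq ⊢
  refine small_of_injective (β := {z // p z ≠ none} ⊕ {z // q z ≠ none})
    (f := fun z => if h : p z.1 ≠ none then Sum.inl ⟨z.1, h⟩ else Sum.inr ⟨z.1, ?_⟩) ?_
  · obtain ⟨c, hc⟩ := Option.ne_none_iff_exists'.1 z.2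
    rcases union_eq_some hc with h1 | h1
    · exact absurd (by rw [h1]; simp) h
    · rw [h1]; simp
  · intro z z' hz
    by_cases h : p z.1 ≠ none <;> by_cases h' : p z'.1 ≠ none
    · simp only [dif_pos h, dif_pos h', Sum.inl.injEq, Subtype.mk.injEq] at hz
      exact Subtype.ext hz
    · simp only [dif_pos h, dif_neg h'] at hz
      cases hz
    · simp only [dif_neg h, dif_pos h'] at hz
      cases hz
    · simp only [dif_neg h, dif_neg h', Sum.inr.injEq, Subtype.mk.injEq] at hz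
      exact Subtype.ext hz

theorem sm_push [TwBase D] {x y : D} (u : x ⟶ y) {p : Col x} (hp : Col.Sm p) :
    Col.Sm (Col.push u p) := by
  unfold Col.Sm at hp ⊢
  have key : ∀ w : {w // Col.push u p w ≠ none}, ∃ z : {z // p z ≠ none},
      Dn.post u z.1 = w.1 := by
    rintro ⟨w, hw⟩
    obtain ⟨c, hc⟩ := Option.ne_none_iff_exists'.1 hw
    obtain ⟨z, hz, hpz⟩ := (Col.push_eq_some u p w c).1 hc
    exact ⟨⟨z, by rw [hpz]; simp⟩, hz⟩
  choose f hf using key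
  refine small_of_injective (f := f) ?_
  intro w w' h
  apply Subtype.ext
  rw [← hf w, ← hf w', h]

theorem sm_pull [TwBase D] {x y : D} (u : x ⟶ y) {q : Col y} (hq : Col.Sm q) :
    Col.Sm (Col.pull u q) := by
  unfold Col.Sm at hq ⊢
  refine small_of_injective (β := {z // q z ≠ none})
    (f := fun z => ⟨Dn.post u z.1, z.2⟩) ?_
  intro z z' hz
  exact Subtype.ext (Dn.post_injective u (congrArg Subtype.val hz))

theorem pull_push [TwBase D] {x y : D} (u : x ⟶ y) (p : Col x) :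
    Col.pull u (Col.push u p) = p := by
  funext z
  exact Col.push_post u p z

theorem push_le [TwBase D] {x y : D} (u : x ⟶ y) {p : Col x} {q : Col y}
    (h : Col.Le p (Col.pull u q)) : Col.Le (Col.push u p) q := by
  intro w c hw
  obtain ⟨z, rfl, hz⟩ := (Col.push_eq_some u p w c).1 hw
  exact h z c hz

theorem push_mono [TwBase D] {x y : D} (u : x ⟶ y) {p q : Col x} (h : Col.Le p q) :
    Col.Le (Col.push u p) (Col.push u q) := by
  apply push_le
  rw [pull_push]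
  exact h

end Col9

theorem cle {X Y : CObj D} (f : X ⟶ Y) : Col.Le X.p (Col.pull f.u Y.p) := CHom.le f

/-! ## Coloured amalgams -/

section amalgam

variable [Tw D]

theorem mono' {x y z : D} (f : y ⟶ z) {g h : x ⟶ y} (e : g ≫ f = h ≫ f) : g = h := by
  have := TwBase.mono f
  exact (cancel_mono f).1 e

omit [Tw D] in
/-- two points with the same image in a pullback situation come from the pullback -/
theorem pb_common {z x y b : D} {p : z ⟶ x} {q : z ⟶ y} {f : x ⟶ b} {g : y ⟶ b}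
    (hpb : IsPB p q f g) {v : Dn x} {w : Dn y} (h : Dn.post f v = Dn.post g w) :
    ∃ c : Dn z, Dn.post p c = v ∧ Dn.post q c = w := by
  obtain ⟨v1, v2⟩ := v
  obtain ⟨w1, w2⟩ := w
  simp only [Dn.post, Sigma.mk.injEq] at h
  obtain ⟨rfl, h⟩ := h
  have h' := eq_of_heq h
  obtain ⟨c, hc1, hc2⟩ := hpb.2 v2 w2 h'
  refine ⟨⟨v1, c⟩, ?_, ?_⟩
  · simp [Dn.post, hc1]
  · simp [Dn.post, hc2]

omit [Tw D] in
theorem post_eq {x y y' b : D} {p : x ⟶ y} {q : x ⟶ y'} {f : y ⟶ b} {g : y' ⟶ b}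
    (h : p ≫ f = q ≫ g) (c : Dn x) : Dn.post f (Dn.post p c) = Dn.post g (Dn.post q c) := by
  rw [← Dn.post_comp, ← Dn.post_comp, h]

/-- two points of the legs of an amalgam with the same image come from the source -/
theorem am_common {i : Ordinal.{0}} {z x y : D} {l : z ⟶ x} {r : z ⟶ y} (hl : Mem i l)
    (hr : Mem i r) {v : Dn x} {w : Dn y}
    (h : Dn.post (Tw.jl i l r hl hr) v = Dn.post (Tw.jr i l r hl hr) w) :
    ∃ c : Dn z, Dn.post l c = v ∧ Dn.post r c = w :=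
  pb_common (Tw.K1 i l r hl hr) h

/-- the colouring of the amalgam is well defined -/
theorem cam_compat {i : Ordinal.{0}} {z : D} {Y Z : CObj D} {l : z ⟶ Y.x} {r : z ⟶ Z.x}
    (hl : Mem i l) (hr : Mem i r) (h : Col.Compat (Col.pull l Y.p) (Col.pull r Z.p)) :
    Col.Compat (Col.push (Tw.jl i l r hl hr) Y.p) (Col.push (Tw.jr i l r hl hr) Z.p) := by
  intro w c c' hc hc'
  obtain ⟨v, hv, hv'⟩ := (Col.push_eq_some _ _ _ _).1 hc
  obtain ⟨v1, hv1, hv1'⟩ := (Col.push_eq_some _ _ _ _).1 hc'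
  obtain ⟨e, he1, he2⟩ := am_common hl hr (hv.trans hv1.symm)
  refine h e c c' ?_ ?_
  · change Y.p (Dn.post l e) = some c
    rw [he1, hv']
  · change Z.p (Dn.post r e) = some c'
    rw [he2, hv1']

/-- the coloured amalgam of `Y` and `Z` along plain morphisms `l`, `r` -/
noncomputable def cam (i : Ordinal.{0}) {z : D} (Y Z : CObj D) (l : z ⟶ Y.x) (r : z ⟶ Z.x)
    (hl : Mem i l) (hr : Mem i r) : CObj D where
  x := Tw.am i l r hl hr
  p := Col.union (Col.push (Tw.jl i l r hl hr) Y.p) (Col.push (Tw.jr i l r hl hr) Z.p)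
  sm := Col9.sm_union (Col9.sm_push _ Y.sm) (Col9.sm_push _ Z.sm)

/-- left leg -/
noncomputable def camL (i : Ordinal.{0}) {z : D} (Y Z : CObj D) (l : z ⟶ Y.x) (r : z ⟶ Z.x)
    (hl : Mem i l) (hr : Mem i r) : Y ⟶ cam i Y Z l r hl hr :=
  ⟨Tw.jl i l r hl hr, by
    have := (Col9.le_union_left (Col.push (Tw.jl i l r hl hr) Y.p)
      (Col.push (Tw.jr i l r hl hr) Z.p)).pull (Tw.jl i l r hl hr)
    rw [Col9.pull_push] at this
    exact this⟩

/-- right leg -/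
noncomputable def camR (i : Ordinal.{0}) {z : D} (Y Z : CObj D) (l : z ⟶ Y.x) (r : z ⟶ Z.x)
    (hl : Mem i l) (hr : Mem i r) (h : Col.Compat (Col.pull l Y.p) (Col.pull r Z.p)) :
    Z ⟶ cam i Y Z l r hl hr :=
  ⟨Tw.jr i l r hl hr, by
    have := (Col9.le_union_right (cam_compat hl hr h)).pull (Tw.jr i l r hl hr)
    rw [Col9.pull_push] at this
    exact this⟩

theorem cam_x (i : Ordinal.{0}) {z : D} (Y Z : CObj D) (l : z ⟶ Y.x) (r : z ⟶ Z.x)
    (hl : Mem i l) (hr : Mem i r) : (cam i Y Z l r hl hr).x = Tw.am i l r hl hr := rfl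

@[simp] theorem camL_u (i : Ordinal.{0}) {z : D} (Y Z : CObj D) (l : z ⟶ Y.x) (r : z ⟶ Z.x)
    (hl : Mem i l) (hr : Mem i r) : (camL i Y Z l r hl hr).u = Tw.jl i l r hl hr := rfl

@[simp] theorem camR_u (i : Ordinal.{0}) {z : D} (Y Z : CObj D) (l : z ⟶ Y.x) (r : z ⟶ Z.x)
    (hl : Mem i l) (hr : Mem i r) (h : Col.Compat (Col.pull l Y.p) (Col.pull r Z.p)) :
    (camR i Y Z l r hl hr h).u = Tw.jr i l r hl hr := rfl

/-- the left leg is conservative if the colours of the right side on the common part are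
already present on the left -/
theorem cons_camL {i : Ordinal.{0}} {z : D} {Y Z : CObj D} {l : z ⟶ Y.x} {r : z ⟶ Z.x}
    (hl : Mem i l) (hr : Mem i r) (h : Col.Le (Col.pull r Z.p) (Col.pull l Y.p)) :
    Cons (camL i Y Z l r hl hr) := by
  refine Col9.le_antisymm ?_ (cle (camL i Y Z l r hl hr))
  intro v c hv
  change Col.union _ _ (Dn.post (Tw.jl i l r hl hr) v) = some c at hv
  rcases Col9.union_eq_some hv with h1 | h1
  · rwa [Col.push_post] at h1
  · obtain ⟨w, hw, hw'⟩ := (Col.push_eq_some _ _ _ _).1 h1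
    obtain ⟨e, rfl, rfl⟩ := am_common hl hr hw.symm
    exact h e c hw'

/-- the right leg is conservative if the colours of the left side on the common part are
already present on the right -/
theorem cons_camR {i : Ordinal.{0}} {z : D} {Y Z : CObj D} {l : z ⟶ Y.x} {r : z ⟶ Z.x}
    (hl : Mem i l) (hr : Mem i r) (hc : Col.Compat (Col.pull l Y.p) (Col.pull r Z.p))
    (h : Col.Le (Col.pull l Y.p) (Col.pull r Z.p)) :
    Cons (camR i Y Z l r hl hr hc) := by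
  refine Col9.le_antisymm ?_ (cle (camR i Y Z l r hl hr hc))
  intro v c hv
  change Col.union _ _ (Dn.post (Tw.jr i l r hl hr) v) = some c at hv
  rcases Col9.union_eq_some hv with h1 | h1
  · obtain ⟨w, hw, hw'⟩ := (Col.push_eq_some _ _ _ _).1 h1
    obtain ⟨e, rfl, rfl⟩ := am_common hl hr hw
    exact h e c hw'
  · rwa [Col.push_post] at h1

/-- two morphisms lie in one stage -/
theorem mem_two {x y x' y' : D} (f : x ⟶ y) (g : x' ⟶ y') : ∃ i, Mem i f ∧ Mem i g := by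
  obtain ⟨i, hi⟩ := TwBase.mem_ex f
  obtain ⟨j, hj⟩ := TwBase.mem_ex g
  exact ⟨max i j, TwBase.mem_mono (le_max_left _ _) hi, TwBase.mem_mono (le_max_right _ _) hj⟩

/-- `a, b` are the legs of the amalgam at stage `i` of the span `l, r` -/
inductive IsAm (i : Ordinal.{0}) {z x y : D} (l : z ⟶ x) (r : z ⟶ y) :
    ∀ {w : D}, (x ⟶ w) → (y ⟶ w) → Prop
  | mk (hl : Mem i l) (hr : Mem i r) : IsAm i l r (Tw.jl i l r hl hr) (Tw.jr i l r hl hr)

theorem IsAm.pb {i : Ordinal.{0}} {z x y w : D} {l : z ⟶ x} {r : z ⟶ y} {a : x ⟶ w}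
    {b : y ⟶ w} (h : IsAm i l r a b) : IsPB l r a b := by
  cases h with
  | mk hl hr => exact Tw.K1 i l r hl hr

theorem exists_am {i : Ordinal.{0}} {z x y : D} {l : z ⟶ x} {r : z ⟶ y} (hl : Mem i l)
    (hr : Mem i r) : ∃ (w : D) (a : x ⟶ w) (b : y ⟶ w), IsAm i l r a b :=
  ⟨_, _, _, .mk hl hr⟩

theorem IsAm.map {i : Ordinal.{0}} {z x y w z' x' y' w' : D} {l : z ⟶ x} {r : z ⟶ y} {a : x ⟶ w}
    {b : y ⟶ w} {l' : z' ⟶ x'} {r' : z' ⟶ y'} {a' : x' ⟶ w'} {b' : y' ⟶ w'}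
    (h' : IsAm i l' r' a' b') (h : IsAm i l r a b) (p : x' ⟶ x) (m : z' ⟶ z) (q : y' ⟶ y)
    (hp : Mem i p) (hm : Mem i m) (hq : Mem i q) (h₁ : IsPB l' m p l) (h₂ : IsPB r' m q r) :
    ∃ φ : w' ⟶ w, IsPB a' p φ a ∧ IsPB b' q φ b := by
  cases h with
  | mk hl hr =>
    cases h' with
    | mk hl' hr' => exact Tw.K2 i l r l' r' hl hr hl' hr' p m q hp hm hq h₁ h₂

/-- coloured amalgams, opaque form -/
theorem exists_cam (i : Ordinal.{0}) {z : D} {Y Z : CObj D} {l : z ⟶ Y.x} {r : z ⟶ Z.x}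
    (hl : Mem i l) (hr : Mem i r) (h : Col.Compat (Col.pull l Y.p) (Col.pull r Z.p)) :
    ∃ (W : CObj D) (a : Y ⟶ W) (b : Z ⟶ W), IsAm i l r a.u b.u ∧
      (∀ w c, W.p w = some c → (∃ y, Dn.post a.u y = w ∧ Y.p y = some c) ∨
        ∃ y, Dn.post b.u y = w ∧ Z.p y = some c) ∧
      (Col.Le (Col.pull r Z.p) (Col.pull l Y.p) → Cons a) ∧
      (Col.Le (Col.pull l Y.p) (Col.pull r Z.p) → Cons b) := by
  refine ⟨cam i Y Z l r hl hr, camL i Y Z l r hl hr, camR i Y Z l r hl hr h, .mk hl hr, ?_,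
    fun h' => cons_camL hl hr h', fun h' => cons_camR hl hr h h'⟩
  intro w c hw
  rcases Col9.union_eq_some hw with h1 | h1
  · exact Or.inl ((Col.push_eq_some _ _ _ _).1 h1)
  · exact Or.inr ((Col.push_eq_some _ _ _ _).1 h1)

end amalgam

/-! ## Stable equivalences -/

/-- A stable equivalence on the coloured object `B`: an equivalence relation on each
`B ⟶ W`, monotone and local in `W`. -/
structure SEq (B : CObj D) where
  rel : ∀ {W : CObj D}, (B ⟶ W) → (B ⟶ W) → Prop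
  refl : ∀ {W : CObj D} (e : B ⟶ W), rel e e
  symm : ∀ {W : CObj D} {e e' : B ⟶ W}, rel e e' → rel e' e
  trans : ∀ {W : CObj D} {e e' e'' : B ⟶ W}, rel e e' → rel e' e'' → rel e e''
  mono : ∀ {W W' : CObj D} (k : W ⟶ W') {e e' : B ⟶ W}, rel e e' → rel (e ≫ k) (e' ≫ k)
  loc : ∀ {W : CObj D} {e e' : B ⟶ W},
    (∀ {Y : CObj D} (k : W ⟶ Y), ∃ (Z : CObj D) (l : Y ⟶ Z),
      rel (e ≫ k ≫ l) (e' ≫ k ≫ l)) → rel e e'

namespace SEq

variable {B : CObj D} (E : SEq B)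

/-- `s ∈ EE_r`: two extensions of `(b, r)` which agree on `s` are equivalent. -/
def EE (r : Col B.x) {z : D} (s : z ⟶ B.x) : Prop :=
  ∀ (W : CObj D) (e₁ e₂ : B ⟶ W), Col.Le r (Col.pull e₁.u W.p) → Col.Le r (Col.pull e₂.u W.p) →
    s ≫ e₁.u = s ≫ e₂.u → E.rel e₁ e₂

variable {E}

theorem EE.mono_col {r r' : Col B.x} (h : Col.Le r r') {z : D} {s : z ⟶ B.x} (hs : E.EE r s) :
    E.EE r' s :=
  fun W e₁ e₂ h₁ h₂ he => hs W e₁ e₂ (h.trans h₁) (h.trans h₂) he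

theorem EE.up {r : Col B.x} {z z' : D} {s : z ⟶ B.x} {t : z' ⟶ B.x} (hs : E.EE r s)
    (h : Thru s t) : E.EE r t := by
  obtain ⟨k, rfl⟩ := h
  intro W e₁ e₂ h₁ h₂ he
  refine hs W e₁ e₂ h₁ h₂ ?_
  rw [Category.assoc, Category.assoc, he]

theorem EE.one (r : Col B.x) : E.EE r (𝟙 B.x) := by
  intro W e₁ e₂ _ _ he
  have : e₁ = e₂ := chom_ext (by simpa using he)
  rw [this]
  exact E.refl _

variable [Tw D]

/-- Lemma C. -/
theorem lemmaC {W W' : CObj D} (k : W ⟶ W') (hk : Cons k) {e e' : B ⟶ W}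
    (h : E.rel (e ≫ k) (e' ≫ k)) : E.rel e e' := by
  apply E.loc
  intro Y v
  obtain ⟨i, hk', hv'⟩ := mem_two k.u v.u
  have hle : Col.Le (Col.pull k.u W'.p) (Col.pull v.u Y.p) := by
    rw [show Col.pull k.u W'.p = W.p from hk]
    exact cle v
  obtain ⟨Z, a, b, hab, -⟩ := exists_cam i hk' hv' (Col9.compat_of_le hle (Col.Le.refl _))
  refine ⟨Z, b, ?_⟩
  have e1 : v ≫ b = k ≫ a := by
    apply chom_ext
    simp only [comp_u]
    exact hab.pb.1.symm
  rw [e1, ← Category.assoc, ← Category.assoc]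
  exact E.mono _ h

/-- Step 1: if `u, v : B ⟶ X` are equivalent then the pullback of `(u, v)` is in `EE`. -/
theorem step1 {X : CObj D} {u v : B ⟶ X} (h : E.rel u v) {z : D} {s t : z ⟶ B.x}
    (hpb : IsPB s t u.u v.u) : E.EE (Col.pull u.u X.p) s := by
  intro W' e₁ e₂ h₁ h₂ he
  -- one stage for everything
  obtain ⟨i, hs, ht, hu, hv, he1, he2⟩ : ∃ i, Mem i s ∧ Mem i t ∧ Mem i u.u ∧ Mem i v.u ∧
      Mem i e₁.u ∧ Mem i e₂.u := by
    obtain ⟨i₁, h1, h2⟩ := mem_two s t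
    obtain ⟨i₂, h3, h4⟩ := mem_two u.u v.u
    obtain ⟨i₃, h5, h6⟩ := mem_two e₁.u e₂.u
    have a1 : i₁ ≤ max i₁ (max i₂ i₃) := le_max_left _ _
    have a2 : i₂ ≤ max i₁ (max i₂ i₃) := le_trans (le_max_left _ _) (le_max_right _ _)
    have a3 : i₃ ≤ max i₁ (max i₂ i₃) := le_trans (le_max_right _ _) (le_max_right _ _)
    exact ⟨_, TwBase.mem_mono a1 h1, TwBase.mem_mono a1 h2, TwBase.mem_mono a2 h3,
      TwBase.mem_mono a2 h4, TwBase.mem_mono a3 h5, TwBase.mem_mono a3 h6⟩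
  have hz : Mem i (𝟙 z) := TwBase.mem_src hs
  have hb : Mem i (𝟙 B.x) := TwBase.mem_tgt hs
  have hse1 : Mem i (s ≫ e₁.u) := TwBase.mem_comp hs he1
  -- the recoloured object `(b, r)`
  let R : CObj D := ⟨B.x, Col.pull u.u X.p, Col9.sm_pull u.u X.sm⟩
  let ρ : B ⟶ R := ⟨𝟙 B.x, by rw [Col.pull_id]; exact cle u⟩
  have hle1 : Col.Le (Col.pull s R.p) (Col.pull (s ≫ e₁.u) W'.p) := by
    rw [Col.pull_comp]
    exact h₁.pull s
  have hle2 : Col.Le (Col.pull v.u X.p) (Col.pull v.u X.p) := Col.Le.refl _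
  obtain ⟨V, k₁, k₂, hV, -, hk₁, -⟩ := exists_cam (Y := W') (Z := R) i hse1 hs
    (Col9.compat_of_le (Col.Le.refl _) hle1)
  replace hk₁ := hk₁ hle1
  -- the double of `X` over `v`
  obtain ⟨WX, j₁, j₂, hWX, hWXp, -, -⟩ := exists_cam (Y := X) (Z := X) i hv hv
    (Col9.compat_of_le hle2 hle2)
  have hj : E.rel (u ≫ j₁) (u ≫ j₂) := by
    have e1 : v ≫ j₁ = v ≫ j₂ := by
      apply chom_ext
      exact hWX.pb.1
    have := E.mono j₁ h
    rw [e1] at this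
    exact E.trans this (E.symm (E.mono j₂ h))
  obtain ⟨S, l₁, l₂, hS⟩ := exists_am hs hs
  obtain ⟨ψ, hψ1, hψ2⟩ := hS.map hWX u.u t u.u hu ht hu hpb hpb
  suffices key : ∀ e : B ⟶ W', Col.Le R.p (Col.pull e.u W'.p) → s ≫ e.u = s ≫ e₁.u →
      Mem i e.u → E.rel (e ≫ k₁) (ρ ≫ k₂) by
    exact lemmaC k₁ hk₁
      (E.trans (key e₁ h₁ rfl he1) (E.symm (key e₂ h₂ he.symm he2)))
  intro e hre hse hei
  have hpb1 : IsPB s (𝟙 z) e.u (s ≫ e₁.u) := by
    refine ⟨by rw [hse, Category.id_comp], ?_⟩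
    intro f a b hab
    refine ⟨b, ?_, Category.comp_id _⟩
    apply mono' e.u
    rw [hab, Category.assoc, hse]
  have hpb2 : IsPB s (𝟙 z) (𝟙 B.x) s := by
    refine ⟨by rw [Category.id_comp, Category.comp_id], ?_⟩
    intro f a b hab
    refine ⟨b, ?_, Category.comp_id _⟩
    rw [← hab, Category.comp_id]
  obtain ⟨φ, hφ1, hφ2⟩ := hS.map hV e.u (𝟙 z) (𝟙 B.x) hei hz hb hpb1 hpb2
  have hle : Col.Le (Col.pull ψ WX.p) (Col.pull φ V.p) := by
    intro w c hw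
    rcases hWXp _ _ hw with ⟨y, hy, hy'⟩ | ⟨y, hy, hy'⟩
    · obtain ⟨c', rfl, rfl⟩ := pb_common hψ1 hy.symm
      change V.p (Dn.post φ (Dn.post _ c')) = some c
      rw [post_eq hφ1.1]
      exact cle k₁ _ _ (hre _ _ hy')
    · obtain ⟨c', rfl, rfl⟩ := pb_common hψ2 hy.symm
      change V.p (Dn.post φ (Dn.post _ c')) = some c
      rw [post_eq hφ2.1, Dn.post_id]
      exact cle k₂ _ _ hy'
  obtain ⟨i', hφ', hψ'⟩ := mem_two φ ψ
  obtain ⟨Ω, a, b, hΩ, -, ha, -⟩ := exists_cam (Y := V) (Z := WX) i' hφ' hψ'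
    (Col9.compat_of_le (Col.Le.refl _) hle)
  have hab : φ ≫ a.u = ψ ≫ b.u := hΩ.pb.1
  refine lemmaC a (ha hle) ?_
  have e1 : (e ≫ k₁) ≫ a = (u ≫ j₁) ≫ b := by
    apply chom_ext
    simp only [comp_u]
    rw [← hφ1.1, ← hψ1.1, Category.assoc, Category.assoc, hab]
  have e2 : (ρ ≫ k₂) ≫ a = (u ≫ j₂) ≫ b := by
    apply chom_ext
    simp only [comp_u]
    change (𝟙 B.x ≫ k₂.u) ≫ a.u = _
    rw [← hφ2.1, ← hψ2.1, Category.assoc, Category.assoc, hab]
  rw [e1, e2]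
  exact E.mono b hj

/-- `EE_r` is closed under intersection. -/
theorem EE.inter {r : Col B.x} (hr : Col.Le B.p r) (hsm : Col.Sm r) {y y' z : D}
    {s : y ⟶ B.x} {s' : y' ⟶ B.x} {p : z ⟶ y} {p' : z ⟶ y'} (hs : E.EE r s) (hs' : E.EE r s')
    (hpb : IsPB p p' s s') : E.EE r (p ≫ s) := by
  let R : CObj D := ⟨B.x, r, hsm⟩
  let ρ : B ⟶ R := ⟨𝟙 B.x, by rw [Col.pull_id]; exact hr⟩
  have hsle : Col.Le (Col.pull s R.p) (Col.pull s R.p) := Col.Le.refl _
  have hsle' : Col.Le (Col.pull s' R.p) (Col.pull s' R.p) := Col.Le.refl _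
  obtain ⟨i, hi, hi'⟩ := mem_two s s'
  obtain ⟨S₁, l₁, l₂, hS₁, -, hl₁, hl₂⟩ := exists_cam (Y := R) (Z := R) i hi hi
    (Col9.compat_of_le hsle hsle)
  replace hl₁ := hl₁ hsle
  replace hl₂ := hl₂ hsle
  obtain ⟨S₂, m₁, m₂, hS₂, -, hm₁, hm₂⟩ := exists_cam (Y := R) (Z := R) i hi' hi'
    (Col9.compat_of_le hsle' hsle')
  replace hm₁ := hm₁ hsle'
  replace hm₂ := hm₂ hsle'
  have hle : Col.pull l₂.u S₁.p = Col.pull m₁.u S₂.p := hl₂.trans hm₁.symm
  have hle1 : Col.Le (Col.pull m₁.u S₂.p) (Col.pull l₂.u S₁.p) := by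
    rw [hle]; exact Col.Le.refl _
  obtain ⟨j, hj, hj'⟩ := mem_two l₂.u m₁.u
  obtain ⟨X, a, b, hX, -, ha, -⟩ := exists_cam (Y := S₁) (Z := S₂) j hj hj'
    (Col9.compat_of_le (Col.Le.refl _) hle1)
  replace ha := ha hle1
  have hmid : l₂ ≫ a = m₁ ≫ b := chom_ext hX.pb.1
  have key : ∀ f : R ⟶ X, Col.Le r (Col.pull (ρ ≫ f).u X.p) := by
    intro f
    have := cle f
    change Col.Le r (Col.pull (𝟙 B.x ≫ f.u) X.p)
    rw [Category.id_comp]
    exact this
  have h1 : E.rel (ρ ≫ l₁ ≫ a) (ρ ≫ l₂ ≫ a) := by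
    refine hs X _ _ (key _) (key _) ?_
    change s ≫ 𝟙 B.x ≫ l₁.u ≫ a.u = s ≫ 𝟙 B.x ≫ l₂.u ≫ a.u
    rw [Category.id_comp, Category.id_comp, ← Category.assoc, ← Category.assoc]
    rw [show s ≫ l₁.u = s ≫ l₂.u from hS₁.pb.1]
  have h2 : E.rel (ρ ≫ m₁ ≫ b) (ρ ≫ m₂ ≫ b) := by
    refine hs' X _ _ (key _) (key _) ?_
    change s' ≫ 𝟙 B.x ≫ m₁.u ≫ b.u = s' ≫ 𝟙 B.x ≫ m₂.u ≫ b.u
    rw [Category.id_comp, Category.id_comp, ← Category.assoc, ← Category.assoc]
    rw [show s' ≫ m₁.u = s' ≫ m₂.u from hS₂.pb.1]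
  rw [hmid] at h1
  have h3 := E.trans h1 h2
  have hfirst : Col.pull (ρ ≫ l₁ ≫ a).u X.p = r := by
    change Col.pull (𝟙 B.x ≫ l₁.u ≫ a.u) X.p = r
    rw [Category.id_comp, Col.pull_comp, show Col.pull a.u X.p = S₁.p from ha]
    exact hl₁
  rw [← hfirst]
  refine step1 h3 (t := p ≫ s) ⟨?_, ?_⟩
  · change (p ≫ s) ≫ 𝟙 B.x ≫ l₁.u ≫ a.u = (p ≫ s) ≫ 𝟙 B.x ≫ m₂.u ≫ b.u
    rw [Category.id_comp, Category.id_comp]
    have q1 : s ≫ l₁.u = s ≫ l₂.u := hS₁.pb.1
    have q2 : s' ≫ m₁.u = s' ≫ m₂.u := hS₂.pb.1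
    have q3 : l₂.u ≫ a.u = m₁.u ≫ b.u := hX.pb.1
    calc (p ≫ s) ≫ l₁.u ≫ a.u = p ≫ (s ≫ l₁.u) ≫ a.u := by simp only [Category.assoc]
      _ = (p ≫ s) ≫ (l₂.u ≫ a.u) := by rw [q1]; simp only [Category.assoc]
      _ = (p' ≫ s') ≫ (m₁.u ≫ b.u) := by rw [q3, hpb.1]
      _ = p' ≫ (s' ≫ m₁.u) ≫ b.u := by simp only [Category.assoc]
      _ = (p' ≫ s') ≫ m₂.u ≫ b.u := by rw [q2]; simp only [Category.assoc]
      _ = (p ≫ s) ≫ m₂.u ≫ b.u := by rw [hpb.1]
  · intro e c c' hcc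
    change c ≫ 𝟙 B.x ≫ l₁.u ≫ a.u = c' ≫ 𝟙 B.x ≫ m₂.u ≫ b.u at hcc
    rw [Category.id_comp, Category.id_comp, ← Category.assoc, ← Category.assoc] at hcc
    obtain ⟨w, hw1, hw2⟩ := hX.pb.2 _ _ hcc
    obtain ⟨g, hg1, hg2⟩ := hS₁.pb.2 _ _ hw1.symm
    obtain ⟨g', hg1', hg2'⟩ := hS₂.pb.2 _ _ hw2
    -- c = g ≫ s, w = g ≫ s, w = g' ≫ s', c' = g' ≫ s'
    obtain ⟨k, hk1, hk2⟩ := hpb.2 g g' (hg2.trans hg1'.symm)
    refine ⟨k, ?_, ?_⟩
    · rw [← Category.assoc, hk1, hg1]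
    · rw [← Category.assoc, hk1, hg2, ← hg1', hg2']

end SEq

end Vale.Agent.P323.Z
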